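import Vale.Agent.Lib.P154Anti.Cert.D12F.Table0
import Vale.Agent.Lib.P154Anti.Cert.D12F.Masses

namespace Vale.Agent.Lib.P154Anti.Cert.D12F

open Vale.Agent.Lib.P154Anti

theorem L40 : lvlOK3 cfg par tblI0 tblE0 vE vc Q40 17589256432237 Q41 = true := by decide +kernel

theorem L41 : lvlOK3 cfg par tblI0 tblE0 vE vc Q41 17588886675609 Q42 = true := by decide +kernel

theorem L42 : lvlOK3 cfg par tblI0 tblE0 vE vc Q42 17588510588263 Q43 = true := by decide +kernel

theorem L43 : lvlOK3 cfg par tblI0 tblE0 vE vc Q43 17588599165303 Q44 = true := by decide +kernel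

theorem L44 : lvlOK3 cfg par tblI0 tblE0 vE vc Q44 17589082705880 Q45 = true := by decide +kernel

theorem L45 : lvlOK3 cfg par tblI0 tblE0 vE vc Q45 17589034626709 Q46 = true := by decide +kernel

theorem L46 : lvlOK3 cfg par tblI0 tblE0 vE vc Q46 17589031782234 Q47 = true := by decide +kernel

theorem L47 : lvlOK3 cfg par tblI0 tblE0 vE vc Q47 17589102172696 Q48 = true := by decide +kernel

theorem L48 : lvlOK3 cfg par tblI0 tblE0 vE vc Q48 17588971240456 Q49 = true := by decide +kernel

theorem L49 : lvlOK3 cfg par tblI0 tblE0 vE vc Q49 17589080372833 Q50 = true := by decide +kernel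

end Vale.Agent.Lib.P154Anti.Cert.D12F
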